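import Vale.Agent.P124.H186.T2a

/-!
P124, piece T2b (helper854, second seat; proof = helper470's chain form of helper131's proof):
the space `E` is not complemented in any `C(K)`.
-/

open Filter Topology TopologicalSpace

namespace P124H186.T2

section Chain

variable {K : Type} [TopologicalSpace K] [CompactSpace K]

/-- pointwise absolute value -/
def absC (f : C(K, ℝ)) : C(K, ℝ) := ⟨fun t => |f t|, f.continuous.abs⟩

omit [CompactSpace K] in
@[simp] lemma absC_apply (f : C(K, ℝ)) (t : K) : absC f t = |f t| := rfl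

/-- asymptotic averaging for all elements of `E` -/
lemma far (f : E) {ε : ℝ} (hε : 0 < ε) :
    ∃ N, ∀ j, N ≤ j → |ev j f - (ev (pa j) f + ev (pb j) f) / 2| ≤ ε := by
  obtain ⟨g, ⟨N, hN⟩, hd⟩ := Metric.mem_closure_iff.1 (dense_Ed f) (ε/2) (by positivity)
  refine ⟨N, fun j hj => ?_⟩
  have h0 := ev_rel hN hj
  have h : ∀ i, |ev i f - ev i g| ≤ ε/2 := by
    intro i
    have := abs_ev_le i (f - g)
    rw [map_sub] at this
    rw [dist_eq_norm] at hd
    linarith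
  have h1 := abs_le.1 (h j)
  have h2 := abs_le.1 (h (pa j))
  have h3 := abs_le.1 (h (pb j))
  rw [abs_le]
  constructor <;> linarith [h1.1, h1.2, h2.1, h2.2, h3.1, h3.2]

/-- a far child of `(a, b)` for two given elements -/
lemma exists_child (f g : E) {ε : ℝ} (hε : 0 < ε) (a b M : ℕ) :
    ∃ j, M ≤ j ∧ 0 < j ∧ pa j = a ∧ pb j = b ∧
      |ev j f - (ev a f + ev b f) / 2| ≤ ε ∧ |ev j g - (ev a g + ev b g) / 2| ≤ ε := by
  obtain ⟨N1, h1⟩ := far f hε
  obtain ⟨N2, h2⟩ := far g hε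
  obtain ⟨j, hj, ha, hb⟩ := exists_par a b (max M (max N1 N2))
  have hM : M < j := lt_of_le_of_lt (le_max_left _ _) hj
  have hN1 : N1 < j := lt_of_le_of_lt ((le_max_left _ _).trans (le_max_right _ _)) hj
  have hN2 : N2 < j := lt_of_le_of_lt ((le_max_right _ _).trans (le_max_right _ _)) hj
  refine ⟨j, hM.le, by omega, ha, hb, ?_, ?_⟩
  · have := h1 j hN1.le
    rwa [ha, hb] at this
  · have := h2 j hN2.le
    rwa [ha, hb] at this

variable (J : E →L[ℝ] C(K, ℝ)) (Q : C(K, ℝ) →L[ℝ] E)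

lemma ev_Q_le {ψ : C(K, ℝ)} (h : ∀ t, |ψ t| ≤ 1) (j : ℕ) : ev j (Q ψ) ≤ ‖Q‖ := by
  have h1 : ‖ψ‖ ≤ 1 := (ContinuousMap.norm_le ψ zero_le_one).2 h
  calc ev j (Q ψ) ≤ |ev j (Q ψ)| := le_abs_self _
    _ ≤ ‖Q ψ‖ := abs_ev_le _ _
    _ ≤ ‖Q‖ * ‖ψ‖ := Q.le_opNorm _
    _ ≤ ‖Q‖ * 1 := by gcongr
    _ = ‖Q‖ := mul_one _

/-- the extremality lemma (L) -/
lemma ext_lemma {ψ ξ φ : C(K, ℝ)} {j : ℕ} {δ : ℝ} (hψ : ∀ t, |ψ t| ≤ 1)
    (hφ : ∀ t, |ξ t| ≤ φ t) (hφ1 : ∀ t, φ t ≤ 1) (hj : ‖Q‖ - δ ≤ ev j (Q ψ)) {σ : ℝ}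
    (hσ : |σ| ≤ 1) :
    σ * ev j (Q ξ) - δ ≤ ev j (Q (φ * ψ)) := by
  have h : ev j (Q (σ • ξ + (ψ - φ * ψ))) ≤ ‖Q‖ := by
    refine ev_Q_le Q ?_ j
    intro t
    simp only [ContinuousMap.add_apply, ContinuousMap.smul_apply, ContinuousMap.sub_apply,
      ContinuousMap.mul_apply, smul_eq_mul]
    have h1 := hφ t
    have h2 := hφ1 t
    have h3 := hψ t
    have h4 : |σ * ξ t| ≤ φ t := by
      rw [abs_mul]
      calc |σ| * |ξ t| ≤ 1 * |ξ t| := by gcongr
        _ ≤ φ t := by rw [one_mul]; exact h1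
    have h5 : |ψ t - φ t * ψ t| ≤ 1 - φ t := by
      have : ψ t - φ t * ψ t = (1 - φ t) * ψ t := by ring
      rw [this, abs_mul, abs_of_nonneg (by linarith : 0 ≤ 1 - φ t)]
      calc (1 - φ t) * |ψ t| ≤ (1 - φ t) * 1 := by
            apply mul_le_mul_of_nonneg_left h3; linarith
        _ = 1 - φ t := mul_one _
    calc |σ * ξ t + (ψ t - φ t * ψ t)| ≤ |σ * ξ t| + |ψ t - φ t * ψ t| := abs_add_le _ _
      _ ≤ 1 := by linarith
  rw [map_add, map_sub, map_smul, map_add, map_sub, map_smul, smul_eq_mul] at h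
  linarith

/-- the state of the chain after `n` steps -/
def State (n : ℕ) (δ : ℝ) : Prop :=
  ∃ (ψ : C(K, ℝ)) (N x : ℕ) (d : ℕ → E), (∀ t, |ψ t| ≤ 1) ∧ x < N ∧
    (∀ k < n, d k ∈ F N) ∧ (∀ k < n, ev x (d k) = 0) ∧
    (∀ j, ∑ k ∈ Finset.range n, |ev j (d k)| ≤ 1) ∧
    ‖Q‖ - δ ≤ ev x (Q ψ) ∧
    n - δ ≤ ev x (Q ((∑ k ∈ Finset.range n, absC (J (d k))) * ψ))

lemma state_zero {δ : ℝ} (hδ : 0 < δ) (hQ : 0 < ‖Q‖) : State J Q 0 δ := by
  -- choose the near-extremal function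
  obtain ⟨ψ, hψ, hn⟩ : ∃ ψ : C(K, ℝ), ‖ψ‖ = 1 ∧ max (‖Q‖ - δ) 0 < ‖Q ψ‖ := by
    by_contra hcon
    push Not at hcon
    have := ContinuousLinearMap.opNorm_le_of_unit_norm (f := Q) (C := max (‖Q‖ - δ) 0)
      (le_max_right _ _) hcon
    rcases le_max_iff.1 this with h | h <;> linarith
  obtain ⟨j, hj⟩ : ∃ j, max (‖Q‖ - δ) 0 < |ev j (Q ψ)| := by
    by_contra hcon
    push Not at hcon
    have := norm_le_of_ev hcon
    linarith
  have hj' : ‖Q‖ - δ < |ev j (Q ψ)| := lt_of_le_of_lt (le_max_left _ _) hj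
  have hψ' : ∀ t, |ψ t| ≤ 1 := fun t => hψ ▸ ψ.norm_coe_le_norm t
  rcases le_total 0 (ev j (Q ψ)) with h | h
  · rw [abs_of_nonneg h] at hj'
    refine ⟨ψ, j+1, j, fun _ => 0, hψ', Nat.lt_succ_self _, ?_, ?_, ?_, hj'.le, ?_⟩
    · intro k hk; omega
    · intro k hk; omega
    · intro i; simp
    · simp; exact hδ.le
  · rw [abs_of_nonpos h] at hj'
    refine ⟨-ψ, j+1, j, fun _ => 0, ?_, Nat.lt_succ_self _, ?_, ?_, ?_, ?_, ?_⟩
    · intro t; simpa using hψ' t
    · intro k hk; omega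
    · intro k hk; omega
    · intro i; simp
    · rw [map_neg, map_neg]; exact hj'.le
    · simp; exact hδ.le

/-- pointwise bound of the sum of the `|J d_k|` -/
lemma sum_abs_le (hJ : ‖J‖ ≤ 1) {n : ℕ} {d : ℕ → E}
    (h : ∀ j, ∑ k ∈ Finset.range n, |ev j (d k)| ≤ 1) (t : K) :
    ∑ k ∈ Finset.range n, |J (d k) t| ≤ 1 := by
  classical
  set σ : ℕ → ℝ := fun k => if 0 ≤ J (d k) t then 1 else -1 with hσ
  have hσ1 : ∀ k, |σ k| = 1 := by
    intro k; simp only [hσ]; split_ifs <;> simp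
  have hv : ‖∑ k ∈ Finset.range n, σ k • d k‖ ≤ 1 := by
    refine norm_le_of_ev ?_
    intro j
    rw [map_sum]
    refine (Finset.abs_sum_le_sum_abs _ _).trans ?_
    refine le_trans (le_of_eq ?_) (h j)
    refine Finset.sum_congr rfl ?_
    intro k _
    rw [map_smul, smul_eq_mul, abs_mul, hσ1, one_mul]
  have h2 : (J (∑ k ∈ Finset.range n, σ k • d k)) t = ∑ k ∈ Finset.range n, |J (d k) t| := by
    rw [map_sum, ContinuousMap.sum_apply]
    refine Finset.sum_congr rfl ?_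
    intro k _
    rw [map_smul, ContinuousMap.smul_apply, smul_eq_mul]
    simp only [hσ]
    split_ifs with hk
    · rw [abs_of_nonneg hk, one_mul]
    · rw [abs_of_neg (not_le.1 hk)]; ring
  rw [← h2]
  calc (J (∑ k ∈ Finset.range n, σ k • d k)) t
      ≤ |(J (∑ k ∈ Finset.range n, σ k • d k)) t| := le_abs_self _
    _ ≤ ‖J (∑ k ∈ Finset.range n, σ k • d k)‖ := by
        have := (J (∑ k ∈ Finset.range n, σ k • d k)).norm_coe_le_norm t
        rwa [Real.norm_eq_abs] at this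
    _ ≤ ‖J‖ * ‖∑ k ∈ Finset.range n, σ k • d k‖ := J.le_opNorm _
    _ ≤ 1 * 1 := by gcongr
    _ = 1 := one_mul 1

lemma state_succ (hJ : ‖J‖ ≤ 1) (hQJ : ∀ f, Q (J f) = f) {n : ℕ}
    (ih : ∀ δ, 0 < δ → State J Q n δ) {δ : ℝ} (hδ : 0 < δ) : State J Q (n+1) δ := by
  classical
  obtain ⟨ψ, N, x, d, hψ, hxN, hdF, hdx, hsum, hq, hG⟩ := ih (δ/4) (by positivity)
  set G : C(K, ℝ) := ∑ k ∈ Finset.range n, absC (J (d k)) with hGdef
  -- the far child y of (x,x)
  obtain ⟨y, hyN, hy0, hya, hyb, hy1, hy2⟩ :=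
    exists_child (Q ψ) (Q (G * ψ)) (show 0 < δ/8 by positivity) x x N
  have hxy : x < y := lt_of_lt_of_le hxN hyN
  -- the new vector
  obtain ⟨dn, hdn, hdnv⟩ := exists_F (y+1) (Nat.succ_pos y)
    (fun j => if j = x then 1 else if j = y then -1 else 0)
  have hdnx : ev x dn = 1 := by rw [hdnv x (by omega)]; simp
  have hdny : ev y dn = -1 := by
    rw [hdnv y (by omega)]
    rw [if_neg (by omega), if_pos rfl]
  have hdno : ∀ j < y+1, j ≠ x → j ≠ y → ev j dn = 0 := by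
    intro j hj h1 h2
    rw [hdnv j hj, if_neg h1, if_neg h2]
  have hyd : ∀ k < n, ev y (d k) = 0 := by
    intro k hk
    rw [ev_rel (hdF k hk) hyN, hya, hyb, hdx k hk]; ring
  set d' : ℕ → E := Function.update d n dn with hd'
  have hd'n : d' n = dn := by simp [hd']
  have hd'k : ∀ k, k < n → d' k = d k := by
    intro k hk; rw [hd', Function.update_of_ne (by omega)]
  have hd'F : ∀ k < n+1, d' k ∈ F (y+1) := by
    intro k hk
    rcases Nat.lt_succ_iff_lt_or_eq.1 hk with h | h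
    · rw [hd'k k h]; exact F_mono (by omega) (hdF k h)
    · rw [h, hd'n]; exact hdn
  have hsum' : ∀ j, ∑ k ∈ Finset.range (n+1), |ev j (d' k)| ≤ 1 := by
    intro j
    induction j using Nat.strong_induction_on with
    | _ j ihj =>
      rcases lt_or_ge j (y+1) with hj | hj
      · have hs : ∑ k ∈ Finset.range (n+1), |ev j (d' k)|
            = ∑ k ∈ Finset.range n, |ev j (d k)| + |ev j dn| := by
          rw [Finset.sum_range_succ, hd'n]
          congr 1
          refine Finset.sum_congr rfl ?_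
          intro k hk
          rw [hd'k k (Finset.mem_range.1 hk)]
        rw [hs]
        by_cases h1 : j = x
        · subst h1
          have : ∑ k ∈ Finset.range n, |ev j (d k)| = 0 :=
            Finset.sum_eq_zero (fun k hk => by rw [hdx k (Finset.mem_range.1 hk), abs_zero])
          rw [this, hdnx]; simp
        · by_cases h2 : j = y
          · subst h2
            have : ∑ k ∈ Finset.range n, |ev j (d k)| = 0 :=
              Finset.sum_eq_zero (fun k hk => by rw [hyd k (Finset.mem_range.1 hk), abs_zero])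
            rw [this, hdny]; simp
          · rw [hdno j hj h1 h2]
            simpa using hsum j
      · have hj0 : 0 < j := by omega
        have h1 := ihj _ (pa_lt hj0)
        have h2 := ihj _ (pb_lt hj0)
        calc ∑ k ∈ Finset.range (n+1), |ev j (d' k)|
            ≤ ∑ k ∈ Finset.range (n+1), (|ev (pa j) (d' k)| + |ev (pb j) (d' k)|) / 2 := by
              refine Finset.sum_le_sum ?_
              intro k hk
              rw [ev_rel (hd'F k (Finset.mem_range.1 hk)) hj, abs_div, abs_two]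
              have := abs_add_le (ev (pa j) (d' k)) (ev (pb j) (d' k))
              linarith
          _ = (∑ k ∈ Finset.range (n+1), |ev (pa j) (d' k)|
                + ∑ k ∈ Finset.range (n+1), |ev (pb j) (d' k)|) / 2 := by
              rw [← Finset.sum_add_distrib, Finset.sum_div]
          _ ≤ 1 := by linarith
  -- the bound of |J dn|
  have hJn : ∀ t, absC (J dn) t ≤ 1 := by
    intro t
    have h1 := sum_abs_le J hJ hsum' t
    rw [Finset.sum_range_succ, hd'n] at h1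
    have h2 : 0 ≤ ∑ k ∈ Finset.range n, |(J (d' k)) t| :=
      Finset.sum_nonneg (fun _ _ => abs_nonneg _)
    rw [absC_apply]
    linarith
  have hqy : ‖Q‖ - (δ/4 + δ/8) ≤ ev y (Q ψ) := by
    have := (abs_le.1 hy1).1
    linarith
  have hx' : 1 - δ/4 ≤ ev x (Q (absC (J dn) * ψ)) := by
    have := ext_lemma Q (σ := 1) hψ (fun t => le_refl _) hJn hq (by simp) (ξ := J dn)
    rw [hQJ, hdnx] at this
    linarith
  have hy' : 1 - (δ/4 + δ/8) ≤ ev y (Q (absC (J dn) * ψ)) := by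
    have := ext_lemma Q (σ := -1) hψ (fun t => le_refl _) hJn hqy (by simp) (ξ := J dn)
    rw [hQJ, hdny] at this
    linarith
  -- the new sum
  have hG' : ∑ k ∈ Finset.range (n+1), absC (J (d' k)) = G + absC (J dn) := by
    rw [Finset.sum_range_succ, hd'n, hGdef]
    congr 1
    refine Finset.sum_congr rfl ?_
    intro k hk
    rw [hd'k k (Finset.mem_range.1 hk)]
  have hGx : (n : ℝ) + 1 - (δ/4 + δ/4) ≤ ev x (Q ((G + absC (J dn)) * ψ)) := by
    rw [add_mul, map_add, map_add]; linarith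
  have hGy : (n : ℝ) + 1 - (δ/4 + δ/8 + (δ/4 + δ/8)) ≤ ev y (Q ((G + absC (J dn)) * ψ)) := by
    have := (abs_le.1 hy2).1
    rw [add_mul, map_add, map_add]; linarith
  -- the far child of (x,y)
  obtain ⟨z, hzN, hz0, hza, hzb, hz1, hz2⟩ :=
    exists_child (Q ψ) (Q ((G + absC (J dn)) * ψ)) (show 0 < δ/8 by positivity) x y (y+1)
  refine ⟨ψ, z+1, z, d', hψ, Nat.lt_succ_self z, ?_, ?_, hsum', ?_, ?_⟩
  · intro k hk
    exact F_mono (by omega) (hd'F k hk)
  · intro k hk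
    rw [ev_rel (hd'F k hk) hzN, hza, hzb]
    rcases Nat.lt_succ_iff_lt_or_eq.1 hk with h | h
    · rw [hd'k k h, hdx k h, hyd k h]; ring
    · rw [h, hd'n, hdnx, hdny]; ring
  · have := (abs_le.1 hz1).1
    linarith
  · rw [hG']
    have := (abs_le.1 hz2).1
    push_cast
    linarith

lemma state_all (hJ : ‖J‖ ≤ 1) (hQJ : ∀ f, Q (J f) = f) (hQ : 0 < ‖Q‖) :
    ∀ n δ, 0 < δ → State J Q n δ := by
  intro n
  induction n with
  | zero => intro δ hδ; exact state_zero J Q hδ hQ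
  | succ n ih => intro δ hδ; exact state_succ J Q hJ hQJ ih hδ

theorem not_complemented_aux (hJ : ‖J‖ ≤ 1) (hQJ : ∀ f, Q (J f) = f) : False := by
  have hQ : 0 < ‖Q‖ := by
    obtain ⟨f, hf, hf0⟩ := exists_F 1 one_pos (fun _ => 1)
    have h2 := hf0 0 one_pos
    have h3 : 0 < ‖f‖ := by
      have := abs_ev_le 0 f
      rw [h2, abs_one] at this
      linarith
    have h4 := Q.le_opNorm (J f)
    rw [hQJ f] at h4
    by_contra hcon
    have h5 : ‖Q‖ = 0 := le_antisymm (not_lt.1 hcon) Q.opNorm_nonneg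
    rw [h5, zero_mul] at h4
    linarith
  obtain ⟨n, hn⟩ := exists_nat_gt (‖Q‖ + 1)
  obtain ⟨ψ, N, x, d, hψ, hxN, hdF, hdx, hsum, hq, hG⟩ := state_all J Q hJ hQJ hQ n 1 one_pos
  have h1 : ev x (Q ((∑ k ∈ Finset.range n, absC (J (d k))) * ψ)) ≤ ‖Q‖ := by
    refine ev_Q_le Q ?_ x
    intro t
    rw [ContinuousMap.mul_apply, abs_mul, ContinuousMap.sum_apply]
    have h2 := sum_abs_le J hJ hsum t
    have h3 : |∑ k ∈ Finset.range n, (absC (J (d k))) t| ≤ 1 := by
      simp only [absC_apply]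
      rw [abs_of_nonneg (Finset.sum_nonneg (fun _ _ => abs_nonneg _))]
      exact h2
    calc _ ≤ (1:ℝ) * 1 := mul_le_mul h3 (hψ t) (abs_nonneg _) zero_le_one
      _ = 1 := one_mul 1
  linarith

end Chain

/-- **T2b**: `E` is not complemented in any `C(K)`. -/
theorem not_complemented (K : Type) [TopologicalSpace K] [CompactSpace K]
    (T : E →L[ℝ] C(K, ℝ)) (S : C(K, ℝ) →L[ℝ] E) :
    S.comp T ≠ ContinuousLinearMap.id ℝ E := by
  intro h
  have hST : ∀ f, S (T f) = f := fun f => by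
    have := congrArg (fun A : E →L[ℝ] E => A f) h
    simpa using this
  have hT0 : 0 ≤ ‖T‖ := T.opNorm_nonneg
  have hL : 0 < ‖T‖ + 1 := by linarith
  refine not_complemented_aux ((‖T‖ + 1)⁻¹ • T) ((‖T‖ + 1) • S) ?_ ?_
  · refine ContinuousLinearMap.opNorm_le_bound _ zero_le_one ?_
    intro f
    have h1 : ((‖T‖ + 1)⁻¹ • T) f = (‖T‖ + 1)⁻¹ • T f := rfl
    have h2 := T.le_opNorm f
    rw [h1, norm_smul, norm_inv, Real.norm_of_nonneg hL.le, one_mul, inv_mul_le_iff₀ hL]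
    nlinarith [norm_nonneg f]
  · intro f
    have h1 : ((‖T‖ + 1) • S) (((‖T‖ + 1)⁻¹ • T) f) = (‖T‖ + 1) • S ((‖T‖ + 1)⁻¹ • T f) := rfl
    rw [h1, map_smul, hST, smul_smul, mul_inv_cancel₀ hL.ne', one_smul]

/-- **T2** (Spec form) -/
theorem T2_space' : ∃ (E : Type) (_ : NormedAddCommGroup E) (_ : NormedSpace ℝ E)
    (_ : CompleteSpace E) (Ed : Set E) (ec : ℕ → E),
    BallPropOn Ed ∧ (0 : E) ∈ Ed ∧ (∀ i, ec i ∈ Ed) ∧ DenseRange ec ∧
    (∀ (K : Type) [TopologicalSpace K] [CompactSpace K] (T : E →L[ℝ] C(K, ℝ))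
      (S : C(K, ℝ) →L[ℝ] E), S.comp T ≠ ContinuousLinearMap.id ℝ E) := by
  obtain ⟨ec, h1, h2⟩ := exists_dense_seq
  exact ⟨E, inferInstance, inferInstance, inferInstance, Ed, ec, ballPropOn_Ed, zero_mem_Ed,
    h1, h2, fun K _ _ T S => not_complemented K T S⟩

end P124H186.T2
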